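import Crest.Statements.S0015
import Crest.Agent.R013.TopFin_803

set_option autoImplicit false
open Crest.NumberTheoryR.Sect
open scoped NNReal
open Crest Crest.NumberTheoryR

namespace Crest.Agent.S0015

/-- Let k be a finite extension of ℚ_p and K a function field over k in which k is algebraically closed, whose everywhere-regular differentials span a space of dimension (the genus) at least two. With the arithmetic fundamental group realised as the Galois group of the maximal everywhere-unramified extension of K: every decomposition group over a rational place of K is the image of a section, every section's image is such a group, and such groups over distinct rational places differ. -/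
theorem result
    (p : ℕ) [Fact p.Prime] (k : Type) [Field k] [Algebra ℚ_[p] k] [FiniteDimensional ℚ_[p] k]
    (K : Type) [Field K] [Algebra k K] [Algebra (RatFunc k) K] [IsScalarTower k (RatFunc k) K]
    [FunctionField k K] (hc : algebraicClosure k K = ⊥) (hg : 2 ≤ genus k K) :
    (∀ vt : Valuation (maxUnramified k K) ℝ≥0, LiesOverRationalPlace k K vt →
        ∃ s : ConstGal k K →* PiGroup k K, IsSection k K s ∧ Set.range s = decomp k K vt) ∧
    (∀ s : ConstGal k K →* PiGroup k K, IsSection k K s →
        ∃ vt : Valuation (maxUnramified k K) ℝ≥0, LiesOverRationalPlace k K vt ∧ Set.range s = decomp k K vt) ∧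
    (∀ vt vt' : Valuation (maxUnramified k K) ℝ≥0, LiesOverRationalPlace k K vt → LiesOverRationalPlace k K vt' →
        decomp k K vt = decomp k K vt' →
        (vt.comap (algebraMap K (maxUnramified k K))).IsEquiv (vt'.comap (algebraMap K (maxUnramified k K)))) := by
  exact Crest.Agent.R013.TopFin_803.s0015 p k K hc hg

end Crest.Agent.S0015
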