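import Crest.Statements.S0016
import Crest.Agent.R013.TopFin_803

set_option autoImplicit false
open Crest.NumberTheoryR.Sect
open scoped NNReal
open Crest Crest.NumberTheoryR

namespace Crest.Agent.S0016

/-- Let k be a finite extension of ℚ_p and K a function field over k (finite over the rational function field) with k algebraically closed in K and genus at least two. Let v be a valuation of K with values in ℝ≥0 extending the normalised p-adic absolute value, and w a valuation of an algebraic closure of K restricting to v on K. Then the maximal everywhere-unramified extension of K is dense in that algebraic closure for w: every element lies within any given positive w-distance of it. -/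
theorem result
    (p : ℕ) [Fact p.Prime] (k : Type) [Field k] [Algebra ℚ_[p] k] [FiniteDimensional ℚ_[p] k]
    (K : Type) [Field K] [Algebra k K] [Algebra (RatFunc k) K] [IsScalarTower k (RatFunc k) K]
    [FunctionField k K] (hc : algebraicClosure k K = ⊥) (hg : 2 ≤ genus k K)
    (v : Valuation K ℝ≥0) (hv : ExtendsPadicNorm k K p v)
    (w : Valuation (AlgebraicClosure K) ℝ≥0)
    (hw : w.comap (algebraMap K (AlgebraicClosure K)) = v) :
    ∀ a : AlgebraicClosure K, ∀ ε : ℝ≥0, 0 < ε →
      ∃ b : maxUnramified k K, w (a - (b : AlgebraicClosure K)) < ε := by
  exact Crest.Agent.R013.TopFin_803.s0016 p k K hc hg v hv w hw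

end Crest.Agent.S0016
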