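import Crest.Statements.S0019
import Crest.Agent.R014.Top_548
import Crest.Agent.R014.RFin_548

set_option autoImplicit false
open Crest.NumberTheoryR.Packets MeasureTheory Filter Topology
universe u
open Crest Crest.NumberTheoryR

namespace Crest.Agent.S0019

/-- Let K_i be totally real sextic fields with no subfield strictly between ℚ and K_i and absolute discriminants tending to infinity, σ_i orderings of the real embeddings. Then for some right-invariant probability measure ν on SL₆(ℤ)\SL₆(ℝ), each (K_i, σ_i) has its volume-weighted packet measure (on the diagonal orbits of the normalised lattices σ_i(I), I locally homothetic to the ring of integers) and these converge to ν on compactly supported continuous functions with no escape of mass. -/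
theorem result
    (K : ℕ → Type u) [∀ i, Field (K i)] [∀ i, NumberField (K i)] [∀ i, NumberField.IsTotallyReal (K i)]
    (hdeg : ∀ i, Module.finrank ℚ (K i) = 6) (hprim : ∀ i, IsPrimitiveField (K i))
    (m : ∀ i, LatticeBasis (5 + 1) (K i)) (hmax : ∀ i, (m i).IsMaximalOrder)
    (σ : ∀ i, Fin (5 + 1) ≃ (K i →+* ℝ))
    (hdisc : Tendsto (fun i => |(NumberField.discr (K i) : ℝ)|) atTop atTop) :
    ∃ ν : Measure (ModSpace (5 + 1)), IsHaarProbability ν ∧
      (∀ i, ∃ μ : Measure (ModSpace (5 + 1)), IsPacketMeasure (m i) (σ i) μ) ∧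
      ∀ μ : ℕ → Measure (ModSpace (5 + 1)), (∀ i, IsPacketMeasure (m i) (σ i) (μ i)) →
        (∀ f : ModSpace (5 + 1) → ℝ, Continuous f → HasCompactSupport f →
          Tendsto (fun i => ∫ x, f x ∂(μ i)) atTop (𝓝 (∫ x, f x ∂ν))) ∧
        (∀ ε : ℝ, 0 < ε → ∃ C : Set (ModSpace (5 + 1)), IsCompact C ∧
          ∀ᶠ i in atTop, 1 - ε ≤ ((μ i) C).toReal) := by
  exact Crest.Agent.R014.Top_548.s19 (fun n _ => Crest.Agent.R014.RFin_548.rinp n) K hdeg hprim m hmax σ hdisc

end Crest.Agent.S0019
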