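import Crest.Statements.S0127
import Crest.Agent.R096.Asq9_895
import Crest.Agent.R096.Nwi7_688

set_option autoImplicit false
open MeasureTheory
open scoped ContDiff ENNReal Gradient
open Crest.AnalysisR.VecCalc3 Crest.AnalysisR.Sobolev
open Crest Crest.AnalysisR Crest.AnalysisR.Sobolev

namespace Crest.Agent.S0127

/-- Let Ω, Λ ⊆ ℝ³ be bounded connected nonempty open sets, 1 ≤ p < ∞, and f a homeomorphism from Ω onto Λ whose components lie in L^p(Ω) and have weak gradients G₀, G₁, G₂ in L^p(Ω). Then for every ε > 0 there is a smooth diffeomorphism g from Ω onto Λ, with components and gradient in L^p(Ω), such that ∫_Ω ‖g - f‖^p + Σⱼ ‖∇gⱼ - Gⱼ‖^p < ε. Thus f is a strong W^{1,p} limit of smooth diffeomorphisms onto the same target. -/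
theorem result
    (Ω Λ : Set R3) (hΩo : IsOpen Ω) (hΩb : Bornology.IsBounded Ω) (hΩc : IsConnected Ω)
    (hΛo : IsOpen Λ) (hΛb : Bornology.IsBounded Λ) (hΛc : IsConnected Λ)
    (p : ℝ) (hp : 1 ≤ p) (f : R3 → R3) (hf : IsHomeomorphOn f Ω Λ)
    (hfp : MemLp f (ENNReal.ofReal p) (volume.restrict Ω))
    (G : Fin 3 → R3 → R3) (hG : ∀ j : Fin 3, HasWeakGradOn Ω (fun x => f x j) (G j))
    (hGp : ∀ j : Fin 3, MemLp (G j) (ENNReal.ofReal p) (volume.restrict Ω))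
    (ε : ℝ≥0∞) (hε : 0 < ε) :
    ∃ g : R3 → R3, IsSmoothDiffeoOn g Ω Λ ∧ MemLp g (ENNReal.ofReal p) (volume.restrict Ω) ∧
      (∀ j : Fin 3, MemLp (fun x => ∇ (fun y => g y j) x) (ENNReal.ofReal p) (volume.restrict Ω)) ∧
      ∫⁻ x in Ω, (‖g x - f x‖ₑ ^ p + ∑ j : Fin 3, ‖∇ (fun y => g y j) x - G j x‖ₑ ^ p) < ε :=
  Crest.Agent.R096.Asq_895.s0127_NEWIN (Crest.Agent.R096.Nwi_688.newinm Crest.Agent.R096.Nem_493.ne1M)
    Ω Λ hΩo hΩb hΩc hΛo hΛb hΛc p hp f hf hfp G hG hGp ε hε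

end Crest.Agent.S0127
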