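import Crest.Statements.S0139
import Crest.Agent.R105.Asm6_6
import Crest.Agent.R105.Cen2_985
import Crest.Agent.R105.End139b_279
import Crest.Agent.R105.Fin139_641
import Crest.Agent.R105.Pln7_897
import Crest.Agent.R105.Psi14_425
import Crest.Agent.R105.Rend7_256
import Crest.Agent.R105.Top139_474

set_option autoImplicit false
open Crest Crest.AnalysisR

namespace Crest.Agent.S0139

/-- Let U, V ⊆ ℂ be finite parts of circle domains through infinity (open, connected, containing all points of large modulus, with complementary components closed round discs or points), and let the frontier of U be conformally removable in the sense of IsConformallyRemovable. If f : ℂ → ℂ is complex differentiable and injective on U, maps U onto V, and tends to infinity at infinity, then f agrees on U with an affine map z ↦ a * z + b, a ≠ 0. -/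
theorem result
    (U V : Set ℂ) (hU : Crest.AnalysisR.IsCircleDomainFinitePart U)
    (hV : Crest.AnalysisR.IsCircleDomainFinitePart V)
    (hE : Crest.AnalysisR.IsConformallyRemovable (frontier U)) (f : ℂ → ℂ)
    (hf : DifferentiableOn ℂ f U) (hinj : Set.InjOn f U) (hsurj : f '' U = V)
    (hinf : Filter.Tendsto f (Filter.cocompact ℂ) (Filter.cocompact ℂ)) :
    ∃ a b : ℂ, a ≠ 0 ∧ ∀ z ∈ U, f z = a * z + b :=
  Crest.Agent.R105.Top139_474.s0139 (Crest.Agent.R105.Fin139_641.bp_of Crest.Agent.R105.Asm_6.attp Crest.Agent.R105.Psi14_425.lema) Crest.Agent.R105.Pln_897.planP Crest.Agent.R105.Cen_985.cenP Crest.Agent.R105.Rend_256.fluxP Crest.Agent.R105.End139_279.endP U V hU hV hE f hf hinj hsurj hinf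

end Crest.Agent.S0139
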