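import Crest.Statements.S0362
import Crest.Agent.R234.Thya6_685

set_option autoImplicit false
open Crest.GeometryTopology.Submanifold
open Crest Crest.GeometryTopology

namespace Crest.Agent.S0362

/-- Let m, n ≥ 1 and U ⊆ ℝ^{m+n} be open, and let V be a stationary integral m-varifold in U, given concretely by countably many disjoint C¹ embedded pieces with positive integer multiplicities and locally finite mass, whose first variation ∫ div_{T_xV} X dμ vanishes on every C¹ vector field compactly supported in U. Then the singular set of V (support points in U near which the support is not a smooth embedded m-submanifold) has Hausdorff dimension at most m − 1. -/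
theorem result
    (m n : ℕ) (hm : 1 ≤ m) (hn : 1 ≤ n) (U : Set (EuclideanSpace ℝ (Fin (m + n))))
    (hU : IsOpen U) (D : VarifoldData m (m + n)) (hD : IsIntegralVarifoldIn U D)
    (hstat : IsStationaryIn U D) :
    dimH (singularSet m (m + n) U D) ≤ (m : ENNReal) - 1 := by
  exact Crest.Agent.R234.Skel4_884.s0362 Crest.Agent.R234.Thya_685.leaves m n hm hn U hU D hD hstat

end Crest.Agent.S0362
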