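import Crest.Statements.S0363
import Crest.Agent.R234.Thya6_685

set_option autoImplicit false
open Crest.GeometryTopology.Submanifold
open MeasureTheory
open scoped ENNReal
open Crest Crest.GeometryTopology

namespace Crest.Agent.S0363

/-- Let m, n ≥ 1 and R > 0. Let V be an integral m-varifold in ℝ^{m+n+1} (countably many disjoint C¹ embedded pieces, positive integer multiplicities, locally finite mass) lying in the sphere of radius R about 0 and stationary for variations tangent to it: ∫ div_{T_xV} X dμ = 0 for every compactly supported C¹ field X with ⟪X x, x⟫ = 0 on the sphere. Then the singular set of V (support points near which the support is not a smooth embedded m-submanifold) has m-dimensional Hausdorff measure zero. -/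
theorem result
    (m n : ℕ) (hm : 1 ≤ m) (hn : 1 ≤ n) (R : ℝ) (hR : 0 < R)
    (D : VarifoldData m (m + n + 1)) (hD : IsIntegralVarifoldIn Set.univ D)
    (hsph : ∀ i, D.chart i '' D.dom i ⊆ Metric.sphere (0 : EuclideanSpace ℝ (Fin (m + n + 1))) R)
    (hstat : ∀ X : EuclideanSpace ℝ (Fin (m + n + 1)) → EuclideanSpace ℝ (Fin (m + n + 1)),
      ContDiff ℝ 1 X → HasCompactSupport X →
      (∀ x ∈ Metric.sphere (0 : EuclideanSpace ℝ (Fin (m + n + 1))) R, inner ℝ (X x) x = 0) →
      firstVariation D X = 0) :
    μH[(m : ℝ)] (singularSet m (m + n + 1) Set.univ D) = 0 := by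
  exact Crest.Agent.R234.Skel4_884.s0363 Crest.Agent.R234.Thya_685.leaves m n hm hn R hR D hD hsph hstat

end Crest.Agent.S0363
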