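import Crest.Statements.S0414
import Crest.Agent.R272.Fin14_235
import Crest.Agent.R272.CycI3_760
import Crest.Agent.R272.Val3_83
import Crest.Agent.R272.H2c_140

set_option autoImplicit false
open Crest.AlgGeometry
open Crest Crest.AlgGeometry

namespace Crest.Agent.S0414

/-- S0414 in the form of 414. -/
theorem s14 : Crest.Agent.R272.G14a_414.S14 := by
  obtain ⟨K, B, hα, hβ, hw1, -, hK⟩ := Crest.Agent.R272.CycI_760.exists_cyc14 Crest.Agent.R272.Mf_839.ka_pow
  have hN : Crest.Agent.R272.Sl1_235.NodeP (Crest.Agent.R272.Nl_595.nloc Crest.Agent.R272.Mf_839.ka_pow) :=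
    fun x h => ⟨(Crest.Agent.R272.NlB_426.node_P Crest.Agent.R272.Mf_839.ka_pow h).1,
      (Crest.Agent.R272.NlB_426.node_P Crest.Agent.R272.Mf_839.ka_pow h).2.1⟩
  have s := Crest.Agent.R272.H2_140.sq14 (Crest.Agent.R272.Nl_595.nloc Crest.Agent.R272.Mf_839.ka_pow)
  refine Crest.Agent.R272.Fin14_235.s14_of _ hN s K hK
    (Crest.Agent.R272.Val_83.arcs14' _ hN K hK s.ne1 s.ne3 ?_ _ _ rfl _ B hα hβ)
  rw [hw1]
  simp

/-- Some smooth connected projective complex surface X (in projective (c+2)-space with its classical topology, cut out by homogeneous polynomials, of dimension two in every chart) contains a connected nodal curve Z with smooth rational irreducible components (injective immersive images of the projective line, any two crossing transversally where they meet, no point on three) and a point x of Z such that infinitely many elements of the fundamental group of X at x come from loops in Z. -/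
theorem result :
    ∃ (c : ℕ) (X : Set (CPn (c + 2))), IsSmoothProjSurface c X ∧ IsConnected X ∧
      ∃ (k : ℕ) (φ : Fin k → RatCurve (c + 2)),
        RatCurve.IsNodalUnion φ ∧ RatCurve.union φ ⊆ X ∧ IsConnected (RatCurve.union φ) ∧
        ∃ x : X, (x : CPn (c + 2)) ∈ RatCurve.union φ ∧
          (loopClassesIn X (RatCurve.union φ) x).Infinite := by
  exact s14

end Crest.Agent.S0414
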