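import Crest.Statements.S0415
import Crest.Agent.R272.Fin6_338
import Crest.Agent.R272.Col_92

set_option autoImplicit false
open Crest.AlgGeometry
open Crest Crest.AlgGeometry

namespace Crest.Agent.S0415

/-- Some smooth connected projective complex variety X (cut out by homogeneous polynomials in a projective space with its classical topology, constant codimension in the charts) contains a simple abelian surface A (a smooth projective surface identified with a complex 2-torus by a lattice-periodic immersive holomorphic map, no complex line meeting the lattice in rank two) and a point x of A where loops in A give exactly the powers of an infinite-order element of the fundamental group of X. -/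
theorem result :
    ∃ (N c : ℕ) (X A : Set (CPn N)), IsSmoothProjVariety c X ∧ IsConnected X ∧
      IsSimpleAbelianSurface A ∧ A ⊆ X ∧
      ∃ x : X, (x : CPn N) ∈ A ∧ ∃ g : FundamentalGroup X x, ¬ IsOfFinOrder g ∧
        loopClassesIn X A x = Set.range (fun k : ℤ => g ^ k) := by
  obtain ⟨M⟩ := (inferInstance : Nonempty Crest.Agent.R272.M15_939.Ar)
  exact Crest.Agent.R272.Fin_338.s15_col M fun Γ _ Y W h _ =>
    Crest.Agent.R272.PW_92.col W Γ Y h

end Crest.Agent.S0415
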