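import Crest.Statements.S0495
import Crest.Agent.R320.Fin_506

set_option autoImplicit false
open Crest Crest.LogicCS

namespace Crest.Agent.S0495

/-- Every regular language over a finite alphabet is the language of some generalized regular expression of star height at most three: an expression built from the constants for the empty language and the empty word, single letters, union, concatenation, complement relative to all words over the alphabet, and Kleene star, with stars nested at most three deep. -/
theorem result (α : Type*) [Finite α]
    (L : Language α) (hL : L.IsRegular) :
    ∃ e : Crest.RegLang.GRegExp α, e.height ≤ 3 ∧ e.lang = L := by
  exact Crest.Agent.R320.Fin_506.final α L hL

end Crest.Agent.S0495
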